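import Vale.Agent.P028.Main

namespace Vale.Agent.Results.P028.GcdSumSupports

theorem result (ψ : ℕ → ℝ) (hψ : ∀ q, 0 ≤ ψ q) (γ : ℕ → ℝ) (C : ℝ)
    (hC : ∀ q', 0 < ψ q' →
      (∑ q ∈ (Finset.range q').filter (fun q => 0 < q ∧ 0 < ψ q), (Nat.gcd q q' : ℝ)) ≤ C * q')
    (hdiv : ¬ Summable ψ) :
    ∀ᵐ x : ℝ, ∃ᶠ q : ℕ in Filter.atTop, ∃ a : ℤ, |(q : ℝ) * x - a - γ q| < ψ q :=
  Vale.Agent.P028.main ψ hψ γ C hC hdiv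

end Vale.Agent.Results.P028.GcdSumSupports
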